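import Vale.Agent.Lib.P157.RSCube

open MeasureTheory Filter Topology ProbabilityTheory

/-- Gardner's replica-symmetric upper bound (in its inf-sup form) for the limit of the expected
pressure on the Ising cube, for every density and every potential `f = log (A - φ)` with `φ`
the cosine transform of a finite positive measure. -/
theorem Vale.Agent.Results.P157.RSUpper.result
    (ρ : Measure ℝ) [IsFiniteMeasure ρ] (A : ℝ) (hA : ρ.real Set.univ < A)
    (α : ℝ) (hα : 0 < α) (r C₁ : ℝ) (hr : 0 ≤ r)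
    (hC : ∀ q : ℝ, 0 ≤ q → q ≤ 1 →
      α * (∫ z, Real.log (A - ∫ ξ, Real.cos (ξ * (Real.sqrt q * z)) *
            Real.exp (-((1 - q) * ξ ^ 2) / 2) ∂ρ) ∂(gaussianReal 0 1))
        - (r / 2) * (1 - q) ≤ C₁) :
    ∃ L : ℝ, Tendsto (fun N : ℕ =>
        Vale.Agent.Lib.P157.expectedPressure
          (fun y => Real.log (A - ∫ ξ, Real.cos (ξ * y) ∂ρ)) α N) atTop (𝓝 L) ∧
      L ≤ C₁ + ∫ y, Real.log (Real.cosh (Real.sqrt r * y)) ∂(gaussianReal 0 1) :=
  Vale.Agent.Lib.P157.rs_upper_limit hA hα hr hC
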