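import Vale.Agent.Results.P157.AnnealedThreshold
import Vale.Agent.Results.P157.RSUpper

open MeasureTheory Filter Topology ProbabilityTheory

/-- Everything proved on the Ising cube for the potentials `f = log (A - φ)`, with `φ` the cosine
transform of a finite positive measure `ρ`, about one and the same limit `L` of the expected
pressure at any density `α > 0`: existence, the annealed bound, strictness above the threshold,
the sharp second moment condition for equality, the exact threshold for `ξ⁴ ≤ 2`, and Gardner's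
replica-symmetric upper bound in inf-sup form. -/
theorem Vale.Agent.Results.P157.A0Conj.result
    (ρ : Measure ℝ) [IsFiniteMeasure ρ] (A : ℝ) (hA : ρ.real Set.univ < A)
    (α : ℝ) (hα : 0 < α) (Ub a₂ : ℝ)
    (hUb : Ub = A - ∫ ξ, Real.exp (-(ξ ^ 2) / 2) ∂ρ)
    (ha₂ : a₂ = ∫ ξ, ξ ^ 2 * Real.exp (-(ξ ^ 2) / 2) ∂ρ) :
    ∃ L : ℝ, Tendsto (fun N : ℕ =>
        Vale.Agent.Lib.P157.expectedPressure
          (fun y => Real.log (A - ∫ ξ, Real.cos (ξ * y) ∂ρ)) α N) atTop (𝓝 L) ∧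
      L ≤ α * Real.log Ub ∧
      (Ub ^ 2 < α * a₂ ^ 2 → L < α * Real.log Ub) ∧
      ((∀ R : ℝ, |R| ≤ 1 →
          α * Real.log (1 + (∫ p : ℝ × ℝ, Real.exp (-(p.1 ^ 2 + p.2 ^ 2) / 2) *
              (Real.cosh (p.1 * p.2 * R) - 1) ∂(ρ.prod ρ)) / Ub ^ 2)
            ≤ Real.log 2 - Real.binEntropy ((1 + R) / 2)) →
        L = α * Real.log Ub) ∧
      ((∀ᵐ ξ ∂ρ, ξ ^ 4 ≤ 2) → (L = α * Real.log Ub ↔ α * a₂ ^ 2 ≤ Ub ^ 2)) ∧
      (∀ r C₁ : ℝ, 0 ≤ r →
        (∀ q : ℝ, 0 ≤ q → q ≤ 1 →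
          α * (∫ z, Real.log (A - ∫ ξ, Real.cos (ξ * (Real.sqrt q * z)) *
                Real.exp (-((1 - q) * ξ ^ 2) / 2) ∂ρ) ∂(gaussianReal 0 1))
            - (r / 2) * (1 - q) ≤ C₁) →
        L ≤ C₁ + ∫ y, Real.log (Real.cosh (Real.sqrt r * y)) ∂(gaussianReal 0 1)) := by
  obtain ⟨L, hL, h1, h2, h3, h4⟩ :=
    Vale.Agent.Results.P157.AnnealedThreshold.result ρ A hA α hα Ub a₂ hUb ha₂
  refine ⟨L, hL, h1, h2, h3, h4, ?_⟩
  intro r C₁ hr hC
  obtain ⟨L', hL', h5⟩ := Vale.Agent.Results.P157.RSUpper.result ρ A hA α hα r C₁ hr hC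
  rw [tendsto_nhds_unique hL hL']
  exact h5
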