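import Vale.Agent.Lib.P157.Threshold

open MeasureTheory Filter Topology ProbabilityTheory

/-- The exact annealed threshold on the Ising cube for the potentials `f = log (A - φ)`, with `φ`
the cosine transform of a finite positive measure `ρ`. Write `Ub = A - ∫ exp (-ξ²/2) dρ` and
`a₂ = ∫ ξ² exp (-ξ²/2) dρ`. The limit `L` of the expected pressure exists, `L ≤ α log Ub`, the
inequality is strict as soon as `Ub² < α a₂²`, equality holds under the sharp second moment
condition, and for `ρ` supported in `ξ⁴ ≤ 2` equality holds if and only if `α a₂² ≤ Ub²`. -/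
theorem Vale.Agent.Results.P157.AnnealedThreshold.result
    (ρ : Measure ℝ) [IsFiniteMeasure ρ] (A : ℝ) (hA : ρ.real Set.univ < A)
    (α : ℝ) (hα : 0 < α) (Ub a₂ : ℝ)
    (hUb : Ub = A - ∫ ξ, Real.exp (-(ξ ^ 2) / 2) ∂ρ)
    (ha₂ : a₂ = ∫ ξ, ξ ^ 2 * Real.exp (-(ξ ^ 2) / 2) ∂ρ) :
    ∃ L : ℝ, Tendsto (fun N : ℕ =>
        Vale.Agent.Lib.P157.expectedPressure
          (fun y => Real.log (A - ∫ ξ, Real.cos (ξ * y) ∂ρ)) α N) atTop (𝓝 L) ∧
      L ≤ α * Real.log Ub ∧
      (Ub ^ 2 < α * a₂ ^ 2 → L < α * Real.log Ub) ∧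
      ((∀ R : ℝ, |R| ≤ 1 →
          α * Real.log (1 + (∫ p : ℝ × ℝ, Real.exp (-(p.1 ^ 2 + p.2 ^ 2) / 2) *
              (Real.cosh (p.1 * p.2 * R) - 1) ∂(ρ.prod ρ)) / Ub ^ 2)
            ≤ Real.log 2 - Real.binEntropy ((1 + R) / 2)) →
        L = α * Real.log Ub) ∧
      ((∀ᵐ ξ ∂ρ, ξ ^ 4 ≤ 2) → (L = α * Real.log Ub ↔ α * a₂ ^ 2 ≤ Ub ^ 2)) := by
  subst hUb ha₂
  obtain ⟨L, hL⟩ := Vale.Agent.Lib.P157.exists_limit hA hα
  refine ⟨L, hL, ?_, ?_, ?_, ?_⟩
  · refine le_of_tendsto_of_tendsto hL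
      (((tendsto_nat_floor_mul_div_atTop hα.le).comp tendsto_natCast_atTop_atTop).mul_const
        (Real.log (A - Vale.Agent.Lib.P157.mOf ρ))) ?_
    filter_upwards [eventually_ge_atTop 1] with N hN
    have hN0 : 0 < N := hN
    have hN' : (0 : ℝ) < N := by exact_mod_cast hN
    have hf := Vale.Agent.Lib.P157.fA_continuous ρ hA
    have hc := Vale.Agent.Lib.P157.fA_abs_le ρ hA
    have e1 := Vale.Agent.Lib.P157.expectedPressure_eq hf hc α N
    rw [e1]
    have h := Vale.Agent.Lib.P157.aN_le_annealed hA hN0 ⌊α * N⌋₊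
    have h2 := mul_le_mul_of_nonneg_left h (by positivity : 0 ≤ 1 / (N : ℝ))
    refine h2.trans (le_of_eq ?_)
    simp only [Function.comp]
    ring
  · intro hth
    obtain ⟨L', hL', hlt⟩ := Vale.Agent.Lib.P157.strict_above hA hα hth
    have : L = L' := tendsto_nhds_unique hL hL'
    rw [this]
    exact hlt
  · intro hcond
    exact tendsto_nhds_unique hL (Vale.Agent.Lib.P157.annealed_limit hA hα hcond)
  · intro hρ
    constructor
    · intro hEq
      by_contra hcon
      push Not at hcon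
      obtain ⟨L', hL', hlt⟩ := Vale.Agent.Lib.P157.strict_above hA hα hcon
      have : L = L' := tendsto_nhds_unique hL hL'
      rw [← this, hEq] at hlt
      exact lt_irrefl _ hlt
    · intro hth
      exact tendsto_nhds_unique hL (Vale.Agent.Lib.P157.annealed_below hA hα hρ hth)
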