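import Vale.Agent.Lib.P157.Final

open MeasureTheory Filter Topology

/-- Existence of the limit of the expected pressure on the Ising cube, for every pattern density,
for all potentials `f = log (A - φ)` with `φ` the cosine transform of a finite positive measure. -/
theorem Vale.Agent.Results.P157.ExistenceCube.result
    (ρ : Measure ℝ) [IsFiniteMeasure ρ] (A : ℝ) (hA : ρ.real Set.univ < A)
    (α : ℝ) (hα : 0 < α) :
    ∃ L : ℝ, Tendsto (fun N : ℕ =>
      Vale.Agent.Lib.P157.expectedPressure
        (fun y => Real.log (A - ∫ ξ, Real.cos (ξ * y) ∂ρ)) α N) atTop (𝓝 L) :=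
  Vale.Agent.Lib.P157.exists_limit hA hα
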